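import Vale.Agent.P171.K9

open MeasureTheory Set Filter Topology

namespace Vale.Agent.Results.P171.Decay

open Vale.Agent.P171

theorem result :
    ∃ φ : ℝ → ℝ, Measurable φ ∧ (∃ M : ℝ, ∀ r : ℝ, |φ r| ≤ M) ∧ Stable φ ∧ Tempered φ ∧
      (∃ C : ℝ, ∀ r : ℝ, 2 ≤ r → |φ r| ≤ C * r ^ (-3 - 1 / 32 : ℝ)) ∧
      ∃ β : ℝ, 0 < β ∧
        (∀ (L : ℝ) (N : ℕ),
          IntegrableOn (fun x : Fin N → E => Real.exp (-β * energy φ x)) (cubeConf L N)) ∧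
        (∀ z : ℝ, 0 < z → ∀ L : ℝ, Summable fun N : ℕ => z ^ N * canonicalZ φ β L N) ∧
        ∃ pressure : ℝ → ℝ,
          (∀ z : ℝ, 0 < z → Tendsto (fun L : ℝ => Real.log (grandZ φ β z L) / L ^ 3) atTop
            (𝓝 (pressure z))) ∧
          ∃ z₀ : ℝ, 0 < z₀ ∧ ¬DifferentiableAt ℝ pressure z₀ := by
  obtain ⟨A, ψ, h, hm, hM, ⟨C, hC0, hC⟩, a, ha⟩ := K.exists_pot
  refine ⟨K.pot A ψ, hm, hM, K.stable_pot h,
    ⟨C, 1 / 32, 2, hC0, by norm_num, by norm_num, fun r hr => (le_abs_self _).trans (hC r hr)⟩,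
    ⟨C, hC⟩, 1, one_pos, K.integrable_boltz h, fun z hz => K.summable_terms h hz,
    fun z => K.P (K.F A ψ) (Real.log z + K.pot A ψ 0 / 2), fun z hz => K.tendsto_grandZ h hz,
    Real.exp (a - K.pot A ψ 0 / 2), Real.exp_pos _, fun hd => ha ?_⟩
  have h1 : DifferentiableAt ℝ (fun t : ℝ => Real.exp (t - K.pot A ψ 0 / 2)) a := by fun_prop
  have h2 := hd.comp a h1
  simpa [Function.comp_def] using h2

end Vale.Agent.Results.P171.Decay
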