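import Vale.Agent.P171.Link

open MeasureTheory Set Filter Topology

namespace Vale.Agent.Results.P171.Transition

open Vale.Agent.P171

theorem result :
    ∃ φ : ℝ → ℝ, Measurable φ ∧ LocallyBoundedPos φ ∧ Stable φ ∧ Tempered φ ∧
      ∃ β : ℝ, 0 < β ∧
        (∀ (L : ℝ) (N : ℕ),
          IntegrableOn (fun x : Fin N → E => Real.exp (-β * energy φ x)) (cubeConf L N)) ∧
        (∀ z : ℝ, 0 < z → ∀ L : ℝ, Summable fun N : ℕ => z ^ N * canonicalZ φ β L N) ∧
        ∃ pressure : ℝ → ℝ,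
          (∀ z : ℝ, 0 < z → Tendsto (fun L : ℝ => Real.log (grandZ φ β z L) / L ^ 3) atTop
            (𝓝 (pressure z))) ∧
          ∃ z₀ : ℝ, 0 < z₀ ∧ ¬DifferentiableAt ℝ pressure z₀ := by
  obtain ⟨κ, ψ, h, ⟨M, hM⟩, a, ha⟩ := exists_kink
  refine ⟨fun r => core r - ψ r, measurable_core.sub h.meas, locBdd_pot h hM, stable_pot h,
    tempered_pot h, 1, one_pos, integrable_boltz h, fun z hz => summable_terms h hz,
    fun z => P ψ (Real.log z - ψ 0 / 2), fun z hz => tendsto_grandZ h hz,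
    Real.exp (a + ψ 0 / 2), Real.exp_pos _, fun hd => ha ?_⟩
  have h1 : DifferentiableAt ℝ (fun t : ℝ => Real.exp (t + ψ 0 / 2)) a := by fun_prop
  have h2 := hd.comp a h1
  simpa [Function.comp_def] using h2

end Vale.Agent.Results.P171.Transition
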